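import Vale.Agent.P232.Torus
import Vale.Agent.P232.Models
import Vale.Agent.P232.Final
import Vale.Agent.P232.Uniq

/-!
# P232: the isoperimetric profile of the cubic flat three-torus and all its minimisers
-/

open MeasureTheory Set
open scoped ENNReal

namespace Vale.Agent.Results.P232.Classification

/-- The isoperimetric profile of `T = ℝ³/ℤ³`: infimum of the perimeters of the measurable
subsets of volume `V`. -/
noncomputable def isoProfile (V : ℝ) : ℝ≥0∞ :=
  ⨅ (E : Set P232.R3) (_ : MeasurableSet E ∧ P232.PeriodicSet E ∧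
    volume (E ∩ P232.cell) = ENNReal.ofReal V), P232.perimeter E

/-- For every `V ∈ (0,1)`: the profile is `J V`, minimisers exist, and every minimiser is, up to a
null set, an embedded ball, a solid tube about a shortest closed geodesic, a slab between
parallel coordinate tori, or the complement of one of these. -/
theorem result (V : ℝ) (h0 : 0 < V) (h1 : V < 1) :
    isoProfile V = ENNReal.ofReal (P232.J V) ∧
    (∃ E : Set P232.R3, MeasurableSet E ∧ P232.PeriodicSet E ∧
      volume (E ∩ P232.cell) = ENNReal.ofReal V ∧ P232.perimeter E = isoProfile V) ∧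
    ∀ E : Set P232.R3, MeasurableSet E → P232.PeriodicSet E →
      volume (E ∩ P232.cell) = ENNReal.ofReal V → P232.perimeter E = isoProfile V →
      ∃ M : Set P232.R3, P232.IsModel M ∧ (E =ᵐ[volume] M ∨ (Eᶜ : Set P232.R3) =ᵐ[volume] M) := by
  obtain ⟨hlow, E, hE1, hE2, hE3, hE4⟩ := P232.final V h0 h1
  have hI : isoProfile V = ENNReal.ofReal (P232.J V) := by
    refine le_antisymm ?_ ?_
    · exact (iInf₂_le E ⟨hE1, hE2, hE3⟩).trans hE4.le
    · exact le_iInf₂ fun F hF => hlow F hF.1 hF.2.1 hF.2.2
  refine ⟨hI, ⟨E, hE1, hE2, hE3, hE4.trans hI.symm⟩, ?_⟩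
  intro F hF1 hF2 hF3 hF4
  exact P232.uniq V h0 h1 F hF1 hF2 hF3 (hF4.trans hI)

end Vale.Agent.Results.P232.Classification
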