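import Vale.Agent.P232.Torus
import Vale.Agent.P232.Final

/-!
# P232: the isoperimetric profile of the cubic flat three-torus is `J`
-/

open MeasureTheory Set
open scoped ENNReal

namespace Vale.Agent.Results.P232.Profile

/-- The isoperimetric profile of `T = ℝ³/ℤ³`: infimum of the perimeters of the measurable
subsets of volume `V`. -/
noncomputable def isoProfile (V : ℝ) : ℝ≥0∞ :=
  ⨅ (E : Set P232.R3) (_ : MeasurableSet E ∧ P232.PeriodicSet E ∧
    volume (E ∩ P232.cell) = ENNReal.ofReal V), P232.perimeter E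

/-- For every `V ∈ (0,1)` the isoperimetric profile of the cubic three-torus is
`min((36π)^{1/3} v^{2/3}, 2√(πv), 2)`, `v = min(V, 1-V)`, and it is attained. -/
theorem result (V : ℝ) (h0 : 0 < V) (h1 : V < 1) :
    isoProfile V = ENNReal.ofReal (P232.J V) ∧
    ∃ E : Set P232.R3, MeasurableSet E ∧ P232.PeriodicSet E ∧
      volume (E ∩ P232.cell) = ENNReal.ofReal V ∧ P232.perimeter E = ENNReal.ofReal (P232.J V) := by
  obtain ⟨hlow, E, hE1, hE2, hE3, hE4⟩ := P232.final V h0 h1
  refine ⟨le_antisymm ?_ ?_, E, hE1, hE2, hE3, hE4⟩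
  · exact (iInf₂_le E ⟨hE1, hE2, hE3⟩).trans hE4.le
  · exact le_iInf₂ fun F hF => hlow F hF.1 hF.2.1 hF.2.2

end Vale.Agent.Results.P232.Profile
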